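import Vale.Agent.P280.H812.Parts

/-! P280: a `ℂ^*`-action with an isolated fixed point on whose tangent space it acts by
homotheties. Interface of the rows. -/

open Vale.Agent.P280.T

namespace Vale.Agent.P280.H812

section
variable {R : Type} [CommRing R] [Algebra ℂ R]

/-- The standing hypotheses. -/
structure Hom (𝒜 : ℕ × ℤ → Submodule ℂ R) [GradedAlgebra 𝒜] (p : R →ₐ[ℂ] ℂ) (μ a : ℤ) (f : R) :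
    Prop where
  man : IsTorusManifold 𝒜
  nef : NefOnRationalCurves 𝒜
  src : IsSource 𝒜 (AddMonoidHom.id ℤ) p μ a
  pos : 0 < a
  one : ∀ χ, TangentWeight 𝒜 p μ χ → χ = a
  hf : f ∈ 𝒜 (1, μ)
  pf : p f = 1

/-- `Y` parametrises the points which tend to the fixed point `x` of slope `ν`. -/
structure BB (𝒜 : ℕ × ℤ → Submodule ℂ R) (a ν : ℤ) (x : R →ₐ[ℂ] ℂ) {s : ℕ}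
    (Y : R →ₐ[ℂ] MvPolynomial (Fin s) ℂ) : Prop where
  surj : Function.Surjective Y
  top : ∀ (d : ℕ) (m : ℤ), ∀ h ∈ 𝒜 (d, m), d • ν < m → Y h = 0
  zero : ∀ d : ℕ, ∀ h ∈ 𝒜 (d, d • ν), Y h = MvPolynomial.C (x h)
  hom : ∀ (d : ℕ) (m : ℤ) (k : ℕ), ∀ h ∈ 𝒜 (d, m), m + k * a = d • ν → (Y h).IsHomogeneous k
  ker : ∀ h, Y h = 0 → h ∈ Ideal.span ({h | ∃ (d : ℕ) (m : ℤ), d • ν < m ∧ h ∈ 𝒜 (d, m)} ∪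
    {h | ∃ d : ℕ, ∃ h' ∈ 𝒜 (d, d • ν), h = h' - algebraMap ℂ R (x h')})

/-- The derivative in the direction `κ`. -/
noncomputable def der {s : ℕ} (κ : Fin s → ℂ) (P : MvPolynomial (Fin s) ℂ) :
    MvPolynomial (Fin s) ℂ := ∑ i, κ i • MvPolynomial.pderiv i P

/-- The translate of a polynomial by `κ`. -/
noncomputable def shift {s : ℕ} (κ : Fin s → ℂ) :
    MvPolynomial (Fin s) ℂ →ₐ[ℂ] MvPolynomial (Fin s) ℂ :=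
  MvPolynomial.aeval fun i => MvPolynomial.X i + MvPolynomial.C (κ i)

/-- `σ` is the maximal slope. -/
def IsTop (𝒜 : ℕ × ℤ → Submodule ℂ R) (σ : ℤ) : Prop :=
  ∀ (d : ℕ) (m : ℤ), ∀ h ∈ 𝒜 (d, m), h ≠ 0 → m ≤ d • σ

end

/-- Row A (X1). -/
def RowA : Prop := ∀ (R : Type) [CommRing R] [Algebra ℂ R] (𝒜 : ℕ × ℤ → Submodule ℂ R)
  [GradedAlgebra 𝒜] (p : R →ₐ[ℂ] ℂ) (μ a : ℤ) (f : R), Hom 𝒜 p μ a f →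
  ∀ (x : R →ₐ[ℂ] ℂ) (ν : ℤ), ¬ IsVertex 𝒜 x → IsFixed 𝒜 x ν →
    ∃ (s : ℕ) (Y : R →ₐ[ℂ] MvPolynomial (Fin s) ℂ), BB 𝒜 a ν x Y

/-- Row B (X2, X3). -/
def RowB : Prop := ∀ (R : Type) [CommRing R] [Algebra ℂ R] (𝒜 : ℕ × ℤ → Submodule ℂ R)
  [GradedAlgebra 𝒜] (p : R →ₐ[ℂ] ℂ) (μ a : ℤ) (f : R), Hom 𝒜 p μ a f →
  ∀ (x : R →ₐ[ℂ] ℂ) (ν : ℤ), ¬ IsVertex 𝒜 x → IsFixed 𝒜 x ν →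
    ∀ (s : ℕ) (Y : R →ₐ[ℂ] MvPolynomial (Fin s) ℂ), BB 𝒜 a ν x Y → ∀ κ : Fin s → ℂ, κ ≠ 0 →
    ∃ (x0 : R →ₐ[ℂ] ℂ) (ν0 : ℤ) (Z : R →ₐ[ℂ] MvPolynomial (Fin s) ℂ), ¬ IsVertex 𝒜 x0 ∧
      IsFixed 𝒜 x0 ν0 ∧ ν0 < ν ∧ Z f = shift κ (Y f) ∧
      (∀ h, MvPolynomial.constantCoeff (Z h) = x0 h) ∧
      ∀ η : R →ₗ[ℂ] ℂ, IsTangent x0 η → HasWeight 𝒜 ν0 (-a) η → ∃ κ' : Fin s → ℂ,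
        ∀ d : ℕ, ∀ h ∈ 𝒜 (d, d • ν0 - a),
          η h = ∑ i, κ' i * MvPolynomial.coeff (Finsupp.single i 1) (Z h)

/-- Row C (X4, X5). -/
def RowC : Prop := ∀ (R : Type) [CommRing R] [Algebra ℂ R] (𝒜 : ℕ × ℤ → Submodule ℂ R)
  [GradedAlgebra 𝒜] (p : R →ₐ[ℂ] ℂ) (μ a : ℤ) (f : R), Hom 𝒜 p μ a f →
  ∀ (x : R →ₐ[ℂ] ℂ) (ν : ℤ), ¬ IsVertex 𝒜 x → IsFixed 𝒜 x ν →
    ∀ (s : ℕ) (Y : R →ₐ[ℂ] MvPolynomial (Fin s) ℂ), BB 𝒜 a ν x Y →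
    Y f ≠ 0 ∧ ∀ κ : Fin s → ℂ, κ ≠ 0 → der κ (Y f) ≠ 0

/-- Row D (X6). -/
def RowD : Prop := ∀ (R : Type) [CommRing R] [Algebra ℂ R] (𝒜 : ℕ × ℤ → Submodule ℂ R)
  [GradedAlgebra 𝒜] (p : R →ₐ[ℂ] ℂ) (μ a : ℤ) (f : R), Hom 𝒜 p μ a f →
  ∀ σ : ℤ, IsTop 𝒜 σ → ∀ q : R →ₐ[ℂ] ℂ, ¬ IsVertex 𝒜 q → IsFixed 𝒜 q σ →
    ∀ (s : ℕ) (Y : R →ₐ[ℂ] MvPolynomial (Fin s) ℂ), BB 𝒜 a σ q Y → Y f ≠ 0 →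
    (∀ κ : Fin s → ℂ, κ ≠ 0 → der κ (Y f) ≠ 0) →
    (∀ κ : Fin s → ℂ, ∃ ℓ ∈ 𝒜 (1, μ + a), Y ℓ = der κ (Y f)) ∧
    ∀ ℓ ∈ 𝒜 (1, μ + a), ∃ κ : Fin s → ℂ, Y ℓ = der κ (Y f)

/-- Row E (X7). -/
def RowE : Prop := ∀ (R : Type) [CommRing R] [Algebra ℂ R] (𝒜 : ℕ × ℤ → Submodule ℂ R)
  [GradedAlgebra 𝒜] (p : R →ₐ[ℂ] ℂ) (μ a : ℤ) (f : R), Hom 𝒜 p μ a f →
  ∀ σ : ℤ, IsTop 𝒜 σ → ∀ q0 : R →ₐ[ℂ] ℂ, ¬ IsVertex 𝒜 q0 → IsFixed 𝒜 q0 σ →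
    ∃ (c c' : ℕ) (r : R) (s : ℕ) (E : Fin s → Derivation ℂ R R), r ∈ 𝒜 (c', c' • σ) ∧ q0 r ≠ 0 ∧
      (∀ j, ∀ (d : ℕ) (m : ℤ), ∀ h ∈ 𝒜 (d, m), E j h ∈ 𝒜 (d + c, m + c • σ + a)) ∧
      ∀ q : R →ₐ[ℂ] ℂ, ¬ IsVertex 𝒜 q → IsFixed 𝒜 q σ → q r ≠ 0 →
        (∀ t : Fin s → ℂ, (∀ h, ∑ j, t j * q (E j h) = 0) → t = 0) ∧
        ∀ v : R →ₗ[ℂ] ℂ, IsTangent q v → HasWeight 𝒜 σ (-a) v →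
          ∃ t : Fin s → ℂ, ∀ h, v h = ∑ j, t j * q (E j h)

/-- Row F (X8). -/
def RowF : Prop := ∀ (R : Type) [CommRing R] [Algebra ℂ R] (𝒜 : ℕ × ℤ → Submodule ℂ R)
  [GradedAlgebra 𝒜] (p : R →ₐ[ℂ] ℂ) (μ a : ℤ) (f : R), Hom 𝒜 p μ a f →
  ∀ ℓ ∈ 𝒜 (1, μ + a), ∃ D : Derivation ℂ R R,
    (∀ (d : ℕ) (m : ℤ), ∀ h ∈ 𝒜 (d, m), D h ∈ 𝒜 (d, m + a)) ∧ D f = ℓ

/-- Row G (X9). -/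
def RowG : Prop := ∀ (R : Type) [CommRing R] [Algebra ℂ R] (𝒜 : ℕ × ℤ → Submodule ℂ R)
  [GradedAlgebra 𝒜] (p : R →ₐ[ℂ] ℂ) (μ a : ℤ) (f : R), Hom 𝒜 p μ a f →
  IsHomogeneousManifold 𝒜

end Vale.Agent.P280.H812
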