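import Vale.Agent.P280.H812.X3

/-! P280, row F: directional derivatives of polynomials. -/

open Vale.Agent.P280.T MvPolynomial

namespace Vale.Agent.P280.H812

variable {s : ℕ}

/-- `der κ` as a derivation. -/
noncomputable def derD (κ : Fin s → ℂ) :
    Derivation ℂ (MvPolynomial (Fin s) ℂ) (MvPolynomial (Fin s) ℂ) :=
  mkDerivation ℂ fun i => C (κ i)

/-- A derivation of the polynomial ring in terms of the partial derivatives. -/
theorem derivation_apply (D : Derivation ℂ (MvPolynomial (Fin s) ℂ) (MvPolynomial (Fin s) ℂ))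
    (P : MvPolynomial (Fin s) ℂ) : D P = ∑ i, pderiv i P * D (X i) := by
  induction P using MvPolynomial.induction_on with
  | C a =>
    have h1 : D (C a) = 0 := D.map_algebraMap a
    rw [h1]
    symm
    apply Finset.sum_eq_zero
    intro i _
    rw [pderiv_C, zero_mul]
  | add P Q hP hQ =>
    rw [map_add, hP, hQ, ← Finset.sum_add_distrib]
    refine Finset.sum_congr rfl fun i _ => ?_
    rw [map_add, add_mul]
  | mul_X P j hP =>
    rw [D.leibniz, hP, smul_eq_mul, smul_eq_mul]
    have h1 : ∀ i, pderiv i (P * X j) * D (X i) =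
        (if i = j then P * D (X j) else 0) + X j * (pderiv i P * D (X i)) := by
      intro i
      rw [pderiv_mul]
      by_cases hij : i = j
      · subst hij
        rw [pderiv_X_self, if_pos rfl]
        ring
      · rw [pderiv_X_of_ne (fun h => hij h.symm), if_neg hij]
        ring
    rw [Finset.sum_congr rfl fun i _ => h1 i, Finset.sum_add_distrib, Finset.sum_ite_eq',
      if_pos (Finset.mem_univ j), ← Finset.mul_sum]

theorem der_eq (κ : Fin s → ℂ) (P : MvPolynomial (Fin s) ℂ) : der κ P = derD κ P := by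
  rw [derivation_apply (derD κ)]
  unfold der derD
  refine Finset.sum_congr rfl fun i _ => ?_
  rw [mkDerivation_X, MvPolynomial.smul_eq_C_mul, mul_comm]

theorem der_add (κ : Fin s → ℂ) (P Q : MvPolynomial (Fin s) ℂ) :
    der κ (P + Q) = der κ P + der κ Q := by
  rw [der_eq, der_eq, der_eq, map_add]

theorem der_sum {ι : Type*} (κ : Fin s → ℂ) (t : Finset ι) (P : ι → MvPolynomial (Fin s) ℂ) :
    der κ (∑ i ∈ t, P i) = ∑ i ∈ t, der κ (P i) := by
  rw [der_eq, map_sum]
  exact Finset.sum_congr rfl fun i _ => (der_eq κ _).symm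

theorem der_smul (κ : Fin s → ℂ) (c : ℂ) (P : MvPolynomial (Fin s) ℂ) :
    der κ (c • P) = c • der κ P := by
  rw [der_eq, der_eq, (derD κ).map_smul]

theorem der_zero (κ : Fin s → ℂ) : der κ (0 : MvPolynomial (Fin s) ℂ) = 0 := by
  rw [der_eq, map_zero]

theorem der_C (κ : Fin s → ℂ) (c : ℂ) : der κ (C c : MvPolynomial (Fin s) ℂ) = 0 := by
  rw [der_eq]
  exact (derD κ).map_algebraMap c

theorem der_sum_left {ι : Type*} (t : Finset ι) (κ : ι → Fin s → ℂ) (c : ι → ℂ)
    (P : MvPolynomial (Fin s) ℂ) :
    der (∑ j ∈ t, c j • κ j) P = ∑ j ∈ t, c j • der (κ j) P := by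
  unfold der
  simp only [Finset.smul_sum, Finset.sum_apply, Pi.smul_apply, Finset.sum_smul, smul_eq_mul,
    mul_smul]
  rw [Finset.sum_comm]

theorem der_homogeneous (κ : Fin s → ℂ) {P : MvPolynomial (Fin s) ℂ} {k : ℕ}
    (h : P.IsHomogeneous (k + 1)) : (der κ P).IsHomogeneous k := by
  unfold der
  refine IsHomogeneous.sum _ _ _ fun i _ => ?_
  rw [MvPolynomial.smul_eq_C_mul]
  have h1 := h.pderiv (i := i)
  rw [Nat.add_sub_cancel] at h1
  have h2 := (isHomogeneous_C (Fin s) (κ i)).mul h1
  rwa [zero_add] at h2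

theorem der_homogeneous_zero (κ : Fin s → ℂ) {P : MvPolynomial (Fin s) ℂ}
    (h : P.IsHomogeneous 0) : der κ P = 0 := by
  have h1 : P = C (coeff 0 P) := by
    rw [← totalDegree_eq_zero_iff_eq_C]
    exact Nat.le_zero.1 h.totalDegree_le
  rw [h1, der_C]

/-- A homogeneous polynomial of positive degree is zero if its derivatives in the directions of a
basis are. -/
theorem eq_zero_of_der {N : ℕ} {κ : Fin N → Fin s → ℂ} (hκ : Submodule.span ℂ (Set.range κ) = ⊤)
    {P : MvPolynomial (Fin s) ℂ} {k : ℕ} (hP : P.IsHomogeneous (k + 1))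
    (h : ∀ j, der (κ j) P = 0) : P = 0 := by
  classical
  have h1 : ∀ v : Fin s → ℂ, der v P = 0 := by
    intro v
    have hv : v ∈ Submodule.span ℂ (Set.range κ) := by rw [hκ]; trivial
    induction hv using Submodule.span_induction with
    | mem x hx =>
      obtain ⟨j, rfl⟩ := hx
      exact h j
    | zero => simp [der]
    | add x y _ _ hx hy =>
      have : der (x + y) P = der x P + der y P := by
        unfold der
        rw [← Finset.sum_add_distrib]
        exact Finset.sum_congr rfl fun i _ => by rw [Pi.add_apply, add_smul]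
      rw [this, hx, hy, add_zero]
    | smul c x _ hx =>
      have : der (c • x) P = c • der x P := by
        unfold der
        rw [Finset.smul_sum]
        exact Finset.sum_congr rfl fun i _ => by rw [Pi.smul_apply, smul_eq_mul, mul_smul]
      rw [this, hx, smul_zero]
  have h2 : ∀ i, pderiv i P = 0 := by
    intro i
    have h3 := h1 (Pi.single i 1)
    unfold der at h3
    rw [Finset.sum_eq_single i] at h3
    · rwa [Pi.single_eq_same, one_smul] at h3
    · intro j _ hj
      rw [Pi.single_eq_of_ne hj, zero_smul]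
    · intro hi
      exact absurd (Finset.mem_univ i) hi
  have h3 := hP.sum_X_mul_pderiv
  rw [Finset.sum_eq_zero (fun i _ => by rw [h2 i, mul_zero])] at h3
  rcases smul_eq_zero.1 h3.symm with h4 | h4
  · omega
  · exact h4

/-- Iterated directional derivatives. -/
noncomputable def iter {N : ℕ} (κ : Fin N → Fin s → ℂ) :
    List (Fin N) → MvPolynomial (Fin s) ℂ → MvPolynomial (Fin s) ℂ
  | [], P => P
  | j :: l, P => der (κ j) (iter κ l P)

theorem iter_homogeneous {N : ℕ} (κ : Fin N → Fin s → ℂ) (l : List (Fin N))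
    {P : MvPolynomial (Fin s) ℂ} {k : ℕ} (hP : P.IsHomogeneous (k + l.length)) :
    (iter κ l P).IsHomogeneous k := by
  induction l generalizing k with
  | nil => exact hP
  | cons j l ih =>
    refine der_homogeneous _ (ih ?_)
    rw [List.length_cons] at hP
    rw [add_assoc, add_comm 1]
    exact hP

/-- A homogeneous polynomial of degree `k` is zero if its `k`-th derivatives in the directions of
a basis are. -/
theorem eq_zero_of_iter {N : ℕ} {κ : Fin N → Fin s → ℂ} (hκ : Submodule.span ℂ (Set.range κ) = ⊤)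
    (k : ℕ) : ∀ {P : MvPolynomial (Fin s) ℂ}, P.IsHomogeneous k →
      (∀ l : List (Fin N), l.length = k → iter κ l P = 0) → P = 0 := by
  suffices h : ∀ k : ℕ, ∀ {P : MvPolynomial (Fin s) ℂ} (l0 : List (Fin N)),
      (P.IsHomogeneous (k + l0.length)) →
      (∀ l : List (Fin N), l.length = k → iter κ (l ++ l0) P = 0) → iter κ l0 P = 0 by
    intro P hP hl
    exact h k [] hP (fun l hl' => by rw [List.append_nil]; exact hl l hl')
  intro k
  induction k with
  | zero =>
    intro P l0 _ h
    exact h [] rfl
  | succ k ih =>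
    intro P l0 hP h
    have h1 : (iter κ l0 P).IsHomogeneous (k + 1) := iter_homogeneous κ l0 hP
    refine eq_zero_of_der hκ h1 fun j => ?_
    change iter κ (j :: l0) P = 0
    refine ih (j :: l0) ?_ fun l hl => ?_
    · rw [List.length_cons, add_comm l0.length 1, ← add_assoc]
      exact hP
    · have h2 := h (l ++ [j]) (by rw [List.length_append, hl]; rfl)
      rwa [List.append_assoc] at h2

end Vale.Agent.P280.H812
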