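import Vale.Agent.P280.H812.F0

/-! P280, row F: derivations which raise the slope are directional derivatives along the fibres
over the sink. -/

open DirectSum Vale.Agent.P280.T MvPolynomial

namespace Vale.Agent.P280.H812

variable {R : Type} [CommRing R] [Algebra ℂ R] {𝒜 : ℕ × ℤ → Submodule ℂ R} [GradedAlgebra 𝒜]

/-- The differential of a map induced by a derivation on a quotient. -/
theorem bb_der {a σ : ℤ} {q : R →ₐ[ℂ] ℂ} {s : ℕ} {Y : R →ₐ[ℂ] MvPolynomial (Fin s) ℂ}
    (B : BB 𝒜 a σ q Y) (htop : IsTop 𝒜 σ) (ha : 0 < a)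
    (hk : ∀ (d : ℕ) (m : ℤ), ∀ h ∈ 𝒜 (d, m), h ≠ 0 → ∃ k : ℕ, m + k * a = d • σ) {c : ℕ}
    (E : Derivation ℂ R R)
    (hE : ∀ (d : ℕ) (m : ℤ), ∀ h ∈ 𝒜 (d, m), E h ∈ 𝒜 (d + c, m + c • σ + a)) :
    ∃ κ : Fin s → ℂ, ∀ h, Y (E h) = der κ (Y h) := by
  -- the derivation vanishes at the kernel of `Y`
  have hker : ∀ h, Y h = 0 → Y (E h) = 0 := by
    intro h hh
    have h1 := B.ker h hh
    suffices h2 : Y h = 0 ∧ Y (E h) = 0 from h2.2
    clear hh
    induction h1 using Submodule.span_induction with
    | mem x hx =>
      rcases hx with ⟨d, m, hm, hx⟩ | ⟨d, h', hh', rfl⟩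
      · have hx0 : x = 0 := by
          by_contra hne
          exact absurd (htop d m x hx hne) (not_le.2 hm)
        rw [hx0, map_zero, map_zero, map_zero]
        exact ⟨rfl, rfl⟩
      · have h3 : E (h' - algebraMap ℂ R (q h')) = 0 := by
          rw [map_sub, E.map_algebraMap, sub_zero]
          by_contra hne
          have h4 := htop _ _ _ (hE d (d • σ) h' hh') hne
          rw [add_smul] at h4
          linarith
        rw [h3, map_zero, map_sub, B.zero d h' hh', AlgHom.commutes]
        exact ⟨sub_self _, rfl⟩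
    | zero =>
      rw [map_zero, map_zero, map_zero]
      exact ⟨rfl, rfl⟩
    | add x y _ _ hx hy =>
      rw [map_add, map_add, map_add, hx.1, hy.1, hx.2, hy.2, add_zero]
      exact ⟨rfl, rfl⟩
    | smul r x _ hx =>
      rw [smul_eq_mul, map_mul, hx.1, mul_zero, E.leibniz, smul_eq_mul, smul_eq_mul, map_add,
        map_mul, map_mul, hx.1, hx.2, mul_zero, zero_mul, add_zero]
      exact ⟨rfl, rfl⟩
  choose u hu using fun i : Fin s => B.surj (X i)
  have hYu : ∀ P : MvPolynomial (Fin s) ℂ, Y (aeval u P) = P := by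
    intro P
    have h1 : (Y.comp (aeval u : MvPolynomial (Fin s) ℂ →ₐ[ℂ] R)) = AlgHom.id ℂ _ := by
      apply MvPolynomial.algHom_ext
      intro i
      rw [AlgHom.comp_apply, aeval_X, hu]
      rfl
    exact DFunLike.congr_fun h1 P
  let D1 : Derivation ℂ (MvPolynomial (Fin s) ℂ) (MvPolynomial (Fin s) ℂ) :=
    Derivation.mk' ((Y.toLinearMap.comp E.toLinearMap).comp (aeval u).toLinearMap) (by
      intro P Q
      change Y (E (aeval u (P * Q))) = P • Y (E (aeval u Q)) + Q • Y (E (aeval u P))
      rw [map_mul, E.leibniz, map_add, smul_eq_mul, smul_eq_mul, map_mul, map_mul, hYu, hYu]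
      rfl)
  have hD1 : ∀ h, Y (E h) = D1 (Y h) := by
    intro h
    change Y (E h) = Y (E (aeval u (Y h)))
    have h1 : Y (E (h - aeval u (Y h))) = 0 := hker _ (by rw [map_sub, hYu, sub_self])
    rw [map_sub, map_sub, sub_eq_zero] at h1
    exact h1
  let κ : Fin s → ℂ := fun i => coeff 0 (D1 (X i))
  refine ⟨κ, fun h => ?_⟩
  have hhom : ∀ (d : ℕ) (m : ℤ), ∀ h ∈ 𝒜 (d, m), Y (E h) = der κ (Y h) := by
    intro d m h hh
    by_cases hne : h = 0
    · rw [hne, map_zero, map_zero, der_zero]
    obtain ⟨k, hk'⟩ := hk d m h hh hne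
    have hYh := B.hom d m k h hh hk'
    rcases k with _ | k
    · rw [der_homogeneous_zero κ hYh]
      have hE0 : E h = 0 := by
        by_contra h0
        have h4 := htop _ _ _ (hE d m h hh) h0
        rw [add_smul] at h4
        push_cast at hk'
        rw [zero_mul, add_zero] at hk'
        rw [hk'] at h4
        linarith
      rw [hE0, map_zero]
    · have hYE : (Y (E h)).IsHomogeneous k := by
        refine B.hom _ _ k _ (hE d m h hh) ?_
        rw [add_smul, ← hk']
        push_cast
        ring
      have h5 : Y (E h) = homogeneousComponent k (Y (E h)) := by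
        rw [homogeneousComponent_of_mem hYE, if_pos rfl]
      rw [h5, hD1, derivation_apply D1, map_sum]
      unfold der
      refine Finset.sum_congr rfl fun i _ => ?_
      have h6 : (pderiv i (Y h)).IsHomogeneous k := by
        have := hYh.pderiv (i := i)
        rwa [Nat.add_sub_cancel] at this
      have h7 : homogeneousComponent k (pderiv i (Y h) * D1 (X i)) =
          pderiv i (Y h) * homogeneousComponent 0 (D1 (X i)) := by
        conv_lhs => rw [← sum_homogeneousComponent (D1 (X i)), Finset.mul_sum, map_sum]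
        rw [Finset.sum_eq_single 0]
        · have h8 : (pderiv i (Y h) * homogeneousComponent 0 (D1 (X i))).IsHomogeneous (k + 0) :=
            h6.mul (homogeneousComponent_isHomogeneous 0 _)
          rw [add_zero] at h8
          rw [homogeneousComponent_of_mem h8, if_pos rfl]
        · intro j _ hj
          have h8 : (pderiv i (Y h) * homogeneousComponent j (D1 (X i))).IsHomogeneous (k + j) :=
            h6.mul (homogeneousComponent_isHomogeneous j _)
          rw [homogeneousComponent_of_mem h8, if_neg (by omega)]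
        · intro h9
          exact absurd (Finset.mem_range.2 (Nat.succ_pos _)) h9
      rw [h7, homogeneousComponent_zero, MvPolynomial.smul_eq_C_mul, mul_comm]
  induction h using DirectSum.Decomposition.inductionOn 𝒜 with
  | zero => rw [map_zero, map_zero, der_zero]
  | homogeneous x => exact hhom _ _ x x.2
  | add x y hx hy => rw [map_add, map_add, map_add, der_add, hx, hy]

end Vale.Agent.P280.H812
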