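import Vale.Agent.P280.H812.F1

/-! P280, row F: slopes, points over the sink, vanishing. -/

open DirectSum Vale.Agent.P280.T MvPolynomial

namespace Vale.Agent.P280.H812

variable {R : Type} [CommRing R] [Algebra ℂ R] {𝒜 : ℕ × ℤ → Submodule ℂ R} [GradedAlgebra 𝒜]

/-- The maximal slope. -/
theorem exists_top (hX : IsTorusManifold 𝒜) :
    ∃ (σ : ℤ) (f0 : R), f0 ∈ 𝒜 (1, σ) ∧ f0 ≠ 0 ∧ IsTop 𝒜 σ := by
  obtain ⟨z, hz⟩ := hX.nonempty
  obtain ⟨m0, h0, hh0, hz0⟩ := (not_isVertex_iff hX.gen z).1 hz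
  have hne0 : h0 ≠ 0 := fun h => hz0 (by rw [h, map_zero])
  obtain ⟨b, hb⟩ := (finite_weights hX).bddAbove
  obtain ⟨σ, ⟨f0, hf0, hf0'⟩, hmax⟩ := Int.exists_greatest_of_bdd
    (P := fun m => ∃ h ∈ 𝒜 (1, m), h ≠ 0) ⟨b, fun m hm => hb hm⟩ ⟨m0, h0, hh0, hne0⟩
  refine ⟨σ, f0, hf0, hf0', fun d m h hh hne => ?_⟩
  have h1 := slope_le (𝒜 := 𝒜) hX.gen (-AddMonoidHom.id ℤ) (-σ) ⊥
    (fun m h hh hne => neg_le_neg (hmax m ⟨h, hh, fun h0 => hne (h0 ▸ Ideal.zero_mem _)⟩)) d m h hh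
    (fun h0 => hne ((Submodule.mem_bot R).1 h0))
  rw [smul_neg] at h1
  exact neg_le_neg_iff.1 h1

/-- All relative slopes are multiples of `a`. -/
theorem Hom.exists_nat {p : R →ₐ[ℂ] ℂ} {μ a : ℤ} {f : R} (H : Hom 𝒜 p μ a f) {σ : ℤ} {f0 : R}
    (hf0 : f0 ∈ 𝒜 (1, σ)) (hne : f0 ≠ 0) (htop : IsTop 𝒜 σ) :
    ∀ (d : ℕ) (m : ℤ), ∀ h ∈ 𝒜 (d, m), h ≠ 0 → ∃ k : ℕ, m + k * a = d • σ := by
  intro d m h hh hne'
  have hdvd := H587.dvd_of_fixed H.man H.src.1 H.src.2.1 (a := a)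
    (fun χ hχ => by rw [H.one χ hχ])
  have h1 := hdvd d m h hh hne'
  have h2 := hdvd 1 σ f0 hf0 hne
  have h3 := htop d m h hh hne'
  have h4 : a ∣ d • σ - m := by
    have : d • σ - m = d • (σ - μ) - (m - d • μ) := by
      rw [smul_sub]
      ring
    rw [this]
    refine dvd_sub ?_ h1
    rw [one_smul] at h2
    rw [nsmul_eq_mul]
    exact Dvd.dvd.mul_left h2 _
  obtain ⟨k, hk⟩ := h4
  have ha := H.pos
  have h5 : 0 ≤ k := by
    by_contra hlt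
    push Not at hlt
    have : a * k < 0 := mul_neg_of_pos_of_neg ha hlt
    linarith
  obtain ⟨n, rfl⟩ := Int.eq_ofNat_of_zero_le h5
  refine ⟨n, ?_⟩
  linarith

/-- The limit of a point at the sink. -/
theorem exists_top_part {σ : ℤ} (htop : IsTop 𝒜 σ) (z : R →ₐ[ℂ] ℂ) :
    ∃ q : R →ₐ[ℂ] ℂ, IsFixed 𝒜 q σ ∧ ∀ d : ℕ, ∀ h ∈ 𝒜 (d, d • σ), q h = z h := by
  let w : ℕ × ℤ →+ ℤ := (multiplesHom ℤ σ).comp (AddMonoidHom.fst ℕ ℤ) - AddMonoidHom.snd ℕ ℤ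
  have hw : ∀ (d : ℕ) (m : ℤ), w (d, m) = d • σ - m := fun d m => rfl
  obtain ⟨y, h1, h2⟩ := exists_limit 𝒜 z w (by
    rintro ⟨d, m⟩ h hh hne
    rw [hw]
    have := htop d m h hh (fun h0 => hne (by rw [h0, map_zero]))
    linarith)
  refine ⟨y, ?_, ?_⟩
  · intro d m h hh hne
    by_contra hcon
    refine hne (h2 (d, m) h hh ?_)
    rw [hw]
    intro h0
    exact hcon (by linarith)
  · intro d h hh
    exact h1 (d, d • σ) h hh (by rw [hw, sub_self])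

/-- A point with the limit `q` lies in the fibre over `q`. -/
theorem BB.eval_eq {a σ : ℤ} {q : R →ₐ[ℂ] ℂ} {s : ℕ} {Y : R →ₐ[ℂ] MvPolynomial (Fin s) ℂ}
    (B : BB 𝒜 a σ q Y) (htop : IsTop 𝒜 σ) {z : R →ₐ[ℂ] ℂ}
    (hz : ∀ d : ℕ, ∀ h ∈ 𝒜 (d, d • σ), q h = z h) {x : R} (hx : Y x = 0) : z x = 0 := by
  have h1 := B.ker x hx
  clear hx
  induction h1 using Submodule.span_induction with
  | mem x hx =>
    rcases hx with ⟨d, m, hm, hx⟩ | ⟨d, h', hh', rfl⟩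
    · have hx0 : x = 0 := by
        by_contra hne
        exact absurd (htop d m x hx hne) (not_le.2 hm)
      rw [hx0, map_zero]
    · rw [map_sub, AlgHom.commutes, ← hz d h' hh']
      exact sub_self _
  | zero => rw [map_zero]
  | add x y _ _ hx hy => rw [map_add, hx, hy, add_zero]
  | smul r x _ hx => rw [smul_eq_mul, map_mul, hx, mul_zero]

/-- The base point of the fibre. -/
theorem BB.const {a σ : ℤ} {q : R →ₐ[ℂ] ℂ} {s : ℕ} {Y : R →ₐ[ℂ] MvPolynomial (Fin s) ℂ}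
    (B : BB 𝒜 a σ q Y) (hq : IsFixed 𝒜 q σ) (ha : 0 < a)
    (hk : ∀ (d : ℕ) (m : ℤ), ∀ h ∈ 𝒜 (d, m), h ≠ 0 → ∃ k : ℕ, m + k * a = d • σ) (h : R) :
    q h = constantCoeff (Y h) := by
  have h1 : q = (MvPolynomial.aeval (fun _ : Fin s => (0 : ℂ))).comp Y := by
    apply algHom_ext_graded 𝒜
    rintro ⟨d, m⟩ h hh
    rw [AlgHom.comp_apply]
    by_cases hne : h = 0
    · rw [hne, map_zero, map_zero, map_zero]
    obtain ⟨k, hk'⟩ := hk d m h hh hne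
    have hY := B.hom d m k h hh hk'
    rcases k with _ | k
    · have hm : m = d • σ := by
        push_cast at hk'
        linarith
      subst hm
      rw [B.zero d h hh, aeval_C]
      rfl
    · have h2 : q h = 0 := by
        by_contra h0
        have := hq d m h hh h0
        rw [this] at hk'
        push_cast at hk'
        have h3 : ((k : ℤ) + 1) * a = 0 := by linarith
        rcases mul_eq_zero.1 h3 with h4 | h4
        · omega
        · omega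
      rw [h2]
      symm
      have h3 : (MvPolynomial.aeval (fun _ : Fin s => (0 : ℂ))) (Y h) = constantCoeff (Y h) := by
        have := aeval_zero' (σ := Fin s) (S₁ := ℂ) (Y h)
        exact this
      rw [h3, constantCoeff_eq]
      exact hY.coeff_eq_zero (by simp)
  have h2 := DFunLike.congr_fun h1 h
  rw [AlgHom.comp_apply] at h2
  rw [h2]
  exact aeval_zero' (σ := Fin s) (S₁ := ℂ) (Y h)

/-- An element which vanishes on the fibres over an open subset of the sink is zero. -/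
theorem eq_zero_of_fibres (hX : IsTorusManifold 𝒜) {a σ : ℤ} {f0 : R} (hf0 : f0 ∈ 𝒜 (1, σ))
    (hne : f0 ≠ 0) (htop : IsTop 𝒜 σ)
    (hA : ∀ q : R →ₐ[ℂ] ℂ, ¬ IsVertex 𝒜 q → IsFixed 𝒜 q σ →
      ∃ (s : ℕ) (Y : R →ₐ[ℂ] MvPolynomial (Fin s) ℂ), BB 𝒜 a σ q Y) {N : ℕ} {g : R}
    (hg : g ∈ 𝒜 (N, N • σ)) (hg0 : g ≠ 0) {x : R}
    (hx : ∀ q : R →ₐ[ℂ] ℂ, ¬ IsVertex 𝒜 q → IsFixed 𝒜 q σ → q g ≠ 0 →
      ∀ (s : ℕ) (Y : R →ₐ[ℂ] MvPolynomial (Fin s) ℂ), BB 𝒜 a σ q Y → Y x = 0) : x = 0 := by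
  have := hX.finiteType
  have := hX.domain
  by_contra hx0
  have h1 : f0 * g * x ≠ 0 := mul_ne_zero (mul_ne_zero hne hg0) hx0
  obtain ⟨z, -, hz⟩ := exists_point (I := (⊥ : Ideal R)) (g := f0 * g * x) (by
    intro h
    obtain ⟨n, hn⟩ := h
    exact pow_ne_zero n h1 ((Submodule.mem_bot R).1 hn))
  rw [map_mul, map_mul] at hz
  obtain ⟨q, hq, hqz⟩ := exists_top_part htop z
  have hqf : q f0 ≠ 0 := by
    rw [hqz 1 f0 (by rw [one_smul]; exact hf0)]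
    exact left_ne_zero_of_mul (left_ne_zero_of_mul hz)
  have hqg : q g ≠ 0 := by
    rw [hqz N g hg]
    exact right_ne_zero_of_mul (left_ne_zero_of_mul hz)
  have hqv : ¬ IsVertex 𝒜 q := fun h => hqf (h 1 σ one_pos f0 hf0)
  obtain ⟨s, Y, B⟩ := hA q hqv hq
  have h2 := hx q hqv hq hqg s Y B
  exact right_ne_zero_of_mul hz (B.eval_eq htop hqz h2)

end Vale.Agent.P280.H812
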