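import Vale.Agent.P280.H812.F2

/-! P280, row F: frames. -/

open DirectSum Vale.Agent.P280.T MvPolynomial

namespace Vale.Agent.P280.H812

variable {R : Type} [CommRing R] [Algebra ℂ R]

/-- Iterated derivations. -/
def iterE {N : ℕ} (E : Fin N → Derivation ℂ R R) : List (Fin N) → R → R
  | [], x => x
  | j :: l, x => E j (iterE E l x)

theorem iterE_Y {N s : ℕ} {E : Fin N → Derivation ℂ R R} {Y : R →ₐ[ℂ] MvPolynomial (Fin s) ℂ}
    {κ : Fin N → Fin s → ℂ} (hκ : ∀ j h, Y (E j h) = der (κ j) (Y h)) (l : List (Fin N)) (x : R) :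
    Y (iterE E l x) = iter κ l (Y x) := by
  induction l with
  | nil => rfl
  | cons j l ih =>
    change Y (E j (iterE E l x)) = der (κ j) (iter κ l (Y x))
    rw [hκ, ih]

theorem iter_sum {N s : ℕ} {κ : Fin N → Fin s → ℂ} (l : List (Fin N)) {ι : Type*} (t : Finset ι)
    (c : ι → ℂ) (P : ι → MvPolynomial (Fin s) ℂ) :
    iter κ l (∑ i ∈ t, c i • P i) = ∑ i ∈ t, c i • iter κ l (P i) := by
  induction l with
  | nil => rfl
  | cons j l ih =>
    change der (κ j) (iter κ l (∑ i ∈ t, c i • P i)) = ∑ i ∈ t, c i • der (κ j) (iter κ l (P i))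
    rw [ih, der_sum]
    exact Finset.sum_congr rfl fun i _ => der_smul _ _ _

variable {𝒜 : ℕ × ℤ → Submodule ℂ R} [GradedAlgebra 𝒜]

theorem iterE_mem {N c : ℕ} {σ a : ℤ} {E : Fin N → Derivation ℂ R R}
    (hE : ∀ j, ∀ (d : ℕ) (m : ℤ), ∀ h ∈ 𝒜 (d, m), E j h ∈ 𝒜 (d + c, m + c • σ + a))
    (l : List (Fin N)) {d : ℕ} {m : ℤ} {x : R} (hx : x ∈ 𝒜 (d, m)) :
    iterE E l x ∈ 𝒜 (d + l.length * c, m + l.length * (c • σ + a)) := by
  induction l with
  | nil =>
    have h1 : (d + ([] : List (Fin N)).length * c,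
        m + (([] : List (Fin N)).length : ℤ) * (c • σ + a)) = (d, m) := by simp
    rw [h1]
    exact hx
  | cons j l ih =>
    have h1 := hE j _ _ _ ih
    have h2 : (d + (j :: l).length * c, m + ((j :: l).length : ℤ) * (c • σ + a)) =
        (d + l.length * c + c, m + l.length * (c • σ + a) + c • σ + a) := by
      rw [List.length_cons]
      apply Prod.ext
      · simp only
        ring
      · simp only
        push_cast
        ring
    rw [h2]
    exact h1

theorem frame_basis {a σ : ℤ} {q : R →ₐ[ℂ] ℂ} {s N : ℕ} {Y : R →ₐ[ℂ] MvPolynomial (Fin s) ℂ}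
    (B : BB 𝒜 a σ q Y) (hq : IsFixed 𝒜 q σ) (ha : 0 < a)
    (hk : ∀ (d : ℕ) (m : ℤ), ∀ h ∈ 𝒜 (d, m), h ≠ 0 → ∃ k : ℕ, m + k * a = d • σ)
    {E : Fin N → Derivation ℂ R R} {κ : Fin N → Fin s → ℂ}
    (hκ : ∀ j h, Y (E j h) = der (κ j) (Y h))
    (h1 : ∀ t : Fin N → ℂ, (∀ h, ∑ j, t j * q (E j h) = 0) → t = 0)
    (h2 : ∀ v : R →ₗ[ℂ] ℂ, IsTangent q v → HasWeight 𝒜 σ (-a) v →
      ∃ t : Fin N → ℂ, ∀ h, v h = ∑ j, t j * q (E j h)) :
    (∀ t : Fin N → ℂ, ∑ j, t j • κ j = 0 → t = 0) ∧ Submodule.span ℂ (Set.range κ) = ⊤ := by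
  have hqE : ∀ (t : Fin N → ℂ) (h : R),
      ∑ j, t j * q (E j h) = constantCoeff (der (∑ j, t j • κ j) (Y h)) := by
    intro t h
    rw [der_sum_left, map_sum]
    refine Finset.sum_congr rfl fun j _ => ?_
    rw [B.const hq ha hk, hκ, MvPolynomial.smul_eq_C_mul, map_mul, constantCoeff_C]
  constructor
  · intro t ht
    refine h1 t fun h => ?_
    rw [hqE, ht]
    simp [der]
  · rw [eq_top_iff]
    intro v _
    let η : R →ₗ[ℂ] ℂ :=
      { toFun := fun h => constantCoeff (der v (Y h))
        map_add' := fun x y => by rw [map_add, der_add, map_add]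
        map_smul' := fun c x => by
          rw [map_smul, der_smul, MvPolynomial.smul_eq_C_mul, map_mul, constantCoeff_C]
          rfl }
    have hη : ∀ h, η h = constantCoeff (der v (Y h)) := fun h => rfl
    obtain ⟨t, ht⟩ := h2 η (by
      intro x y
      rw [hη, hη, hη, map_mul, der_eq, der_eq, der_eq, (derD v).leibniz, map_add, smul_eq_mul,
        smul_eq_mul, map_mul, map_mul, B.const hq ha hk x, B.const hq ha hk y]) (by
      intro d m h hh hne
      rw [hη] at hne
      have hh0 : h ≠ 0 := by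
        rintro rfl
        exact hne (by rw [map_zero, der_zero, map_zero])
      obtain ⟨k, hk'⟩ := hk d m h hh hh0
      have hY := B.hom d m k h hh hk'
      rcases k with _ | _ | k
      · exact absurd (by rw [der_homogeneous_zero v hY, map_zero]) hne
      · push_cast at hk'
        linarith
      · exfalso
        apply hne
        rw [constantCoeff_eq]
        exact (der_homogeneous v hY).coeff_eq_zero (by simp))
    have hv : v = ∑ j, t j • κ j := by
      funext i
      obtain ⟨u, hu⟩ := B.surj (X i)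
      have h3 := ht u
      rw [hqE, hη, hu] at h3
      have h4 : ∀ w : Fin s → ℂ, constantCoeff (der w (X i : MvPolynomial (Fin s) ℂ)) = w i := by
        intro w
        rw [der_eq]
        unfold derD
        rw [mkDerivation_X, constantCoeff_C]
      rwa [h4, h4] at h3
    rw [hv]
    exact Submodule.sum_mem _ fun j _ =>
      Submodule.smul_mem _ _ (Submodule.subset_span ⟨j, rfl⟩)

/-- The determinant of a matrix of elements of maximal slope. -/
theorem det_mem {σ : ℤ} {N D : ℕ} {G : Matrix (Fin N) (Fin N) R}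
    (hG : ∀ i j, G i j ∈ 𝒜 (D, D • σ)) : G.det ∈ 𝒜 (N * D, (N * D) • σ) := by
  rw [Matrix.det_apply]
  refine Submodule.sum_mem _ fun τ _ => ?_
  have key : ∀ t : Finset (Fin N), ∏ i ∈ t, G (τ i) i ∈ 𝒜 (t.card * D, (t.card * D) • σ) := by
    intro t
    classical
    induction t using Finset.induction_on with
    | empty =>
      rw [Finset.prod_empty, Finset.card_empty, zero_mul, zero_smul]
      exact SetLike.GradedOne.one_mem
    | insert i t hi ih =>
      rw [Finset.prod_insert hi, Finset.card_insert_of_notMem hi]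
      have h1 := SetLike.mul_mem_graded (hG (τ i) i) ih
      have h2 : ((t.card + 1) * D, ((t.card + 1) * D) • σ) =
          (D, D • σ) + (t.card * D, (t.card * D) • σ) := by
        rw [Prod.mk_add_mk, ← add_smul]
        have : (t.card + 1) * D = D + t.card * D := by ring
        rw [this]
      rw [h2]
      exact h1
  have h3 := key Finset.univ
  rw [Finset.card_univ, Fintype.card_fin] at h3
  rcases Int.units_eq_one_or (Equiv.Perm.sign τ) with h4 | h4
  · rw [h4, one_smul]
    exact h3
  · rw [h4, Units.neg_smul, one_smul]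
    exact Submodule.neg_mem _ h3

end Vale.Agent.P280.H812
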