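import Vale.Agent.P280.H812.F3
import Vale.Agent.P280.H93.Tangent

/-! P280, row F: the field near a point of the sink. -/

open DirectSum Vale.Agent.P280.T MvPolynomial

namespace Vale.Agent.P280.H812

theorem exists_lists {N s : ℕ} (G : List (Fin s) → Fin s → ℂ)
    (hG : ∀ t : Fin s → ℂ, (∀ l : List (Fin s), l.length = N → ∑ j, t j * G l j = 0) → t = 0) :
    ∃ l : Fin s → List (Fin s), (∀ i, (l i).length = N) ∧
      (Matrix.of fun i j => G (l i) j).det ≠ 0 := by
  let v : Fin s → ((({l : List (Fin s) // l.length = N}) →₀ ℂ) →ₗ[ℂ] ℂ) := fun j =>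
    Finsupp.linearCombination ℂ fun l => G l.1 j
  have hv : LinearIndependent ℂ v := by
    rw [Fintype.linearIndependent_iff]
    intro t ht i
    have h1 : t = 0 := hG t (fun l hl => by
      have h2 := LinearMap.congr_fun ht (Finsupp.single ⟨l, hl⟩ 1)
      rw [LinearMap.sum_apply, LinearMap.zero_apply] at h2
      rw [← h2]
      refine Finset.sum_congr rfl fun j _ => ?_
      rw [LinearMap.smul_apply, Finsupp.linearCombination_single, one_smul, smul_eq_mul])
    rw [h1]
    rfl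
  obtain ⟨h, hh, hdet⟩ := H93.exists_det_ne v hv
    (Set.range fun l : {l : List (Fin s) // l.length = N} => Finsupp.single l (1 : ℂ)) (by
    have := (Finsupp.basisSingleOne (R := ℂ) (ι := {l : List (Fin s) // l.length = N})).span_eq
    rw [Finsupp.coe_basisSingleOne] at this
    exact this)
  choose l hl using hh
  refine ⟨fun i => (l i).1, fun i => (l i).2, ?_⟩
  have h1 : (Matrix.of fun i j => G (l i).1 j) = (Matrix.of fun i j => v i (h j)).transpose := by
    ext i j
    rw [Matrix.transpose_apply, Matrix.of_apply, Matrix.of_apply, ← hl]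
    change _ = Finsupp.linearCombination ℂ (fun l : {l : List (Fin s) // l.length = N} => G l.1 j)
      (Finsupp.single (l i) 1)
    rw [Finsupp.linearCombination_single, one_smul]
  rw [h1, Matrix.det_transpose]
  exact hdet

/-- A linear system over the complex numbers. -/
theorem eq_of_det {s : ℕ} {A : Matrix (Fin s) (Fin s) ℂ} (hA : A.det ≠ 0) {u v : Fin s → ℂ}
    (h : ∀ i, ∑ j, A i j * u j = ∑ j, A i j * v j) : u = v := by
  have h1 : Matrix.mulVec A u = Matrix.mulVec A v := by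
    funext i
    exact h i
  have h2 := Matrix.mulVec_injective_iff_isUnit.2
    ((Matrix.isUnit_iff_isUnit_det A).2 (isUnit_iff_ne_zero.2 hA))
  exact h2 h1

variable {R : Type} [CommRing R] [Algebra ℂ R] {𝒜 : ℕ × ℤ → Submodule ℂ R} [GradedAlgebra 𝒜]

theorem local_field (hA : RowA) (hC : RowC) (hD : RowD) (hE : RowE) {p : R →ₐ[ℂ] ℂ} {μ a : ℤ}
    {f : R} (H : Hom 𝒜 p μ a f) {σ : ℤ} {f0 : R} (hf0 : f0 ∈ 𝒜 (1, σ)) (hf0' : f0 ≠ 0)
    (htop : IsTop 𝒜 σ) {ℓ : R} (hℓ : ℓ ∈ 𝒜 (1, μ + a)) {q0 : R →ₐ[ℂ] ℂ} (hq0 : ¬ IsVertex 𝒜 q0)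
    (hq0' : IsFixed 𝒜 q0 σ) :
    ∃ (N : ℕ) (Δ : R) (D : Derivation ℂ R R), Δ ∈ 𝒜 (N, N • σ) ∧ q0 Δ ≠ 0 ∧
      (∀ (d : ℕ) (m : ℤ), ∀ h ∈ 𝒜 (d, m), D h ∈ 𝒜 (d + N, m + N • σ + a)) ∧ D f = Δ * ℓ := by
  have hX := H.man
  have := hX.domain
  have hk := H.exists_nat hf0 hf0' htop
  have hfne : f ≠ 0 := fun h => by
    have := H.pf
    rw [h, map_zero] at this
    exact zero_ne_one this
  obtain ⟨e, he⟩ := hk 1 μ f H.hf hfne
  rw [one_smul] at he
  rcases e with _ | N
  · have hℓ0 : ℓ = 0 := by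
      by_contra hne
      have h1 := htop 1 _ ℓ hℓ hne
      rw [one_smul] at h1
      have := H.pos
      push_cast at he
      linarith
    refine ⟨0, 1, 0, ?_, ?_, ?_, ?_⟩
    · rw [zero_smul]
      exact SetLike.GradedOne.one_mem
    · rw [map_one]
      exact one_ne_zero
    · intro d m h _
      exact Submodule.zero_mem _
    · rw [hℓ0, mul_zero]
      rfl
  obtain ⟨c, c', r, s, E, hr, hqr, hEsh, hEq⟩ := hE R 𝒜 p μ a f H σ htop q0 hq0 hq0'
  push_cast at he
  have hG : ∀ l : List (Fin s), l.length = N → ∀ j,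
      iterE E l (E j f) ∈ 𝒜 (1 + (N + 1) * c, (1 + (N + 1) * c) • σ) := by
    intro l hl j
    have h1 := iterE_mem hEsh l (hEsh j 1 μ f H.hf)
    have h2 : ((1 + (N + 1) * c, (1 + (N + 1) * c) • σ) : ℕ × ℤ) =
        (1 + c + l.length * c, μ + c • σ + a + l.length * (c • σ + a)) := by
      rw [hl]
      apply Prod.ext
      · simp only
        ring
      · simp only [nsmul_eq_mul]
        push_cast
        linear_combination -he
    rw [h2]
    exact h1
  have hL : ∀ l : List (Fin s), l.length = N →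
      iterE E l ℓ ∈ 𝒜 (1 + N * c, (1 + N * c) • σ) := by
    intro l hl
    have h1 := iterE_mem hEsh l hℓ
    have h2 : ((1 + N * c, (1 + N * c) • σ) : ℕ × ℤ) =
        (1 + l.length * c, μ + a + l.length * (c • σ + a)) := by
      rw [hl]
      apply Prod.ext
      · rfl
      · simp only [nsmul_eq_mul]
        push_cast
        linear_combination -he
    rw [h2]
    exact h1
  -- what happens at a point of the sink
  have hpt : ∀ q : R →ₐ[ℂ] ℂ, ¬ IsVertex 𝒜 q → IsFixed 𝒜 q σ → q r ≠ 0 →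
      ∀ (s' : ℕ) (Y : R →ₐ[ℂ] MvPolynomial (Fin s') ℂ), BB 𝒜 a σ q Y →
      ∃ (κ : Fin s → Fin s' → ℂ) (t : Fin s → ℂ), (∀ j h, Y (E j h) = der (κ j) (Y h)) ∧
        (∀ t : Fin s → ℂ, ∑ j, t j • κ j = 0 → t = 0) ∧ Submodule.span ℂ (Set.range κ) = ⊤ ∧
        Y ℓ = ∑ j, t j • Y (E j f) := by
    intro q hq hq' hqr s' Y B
    choose κ hκ using fun j => bb_der B htop H.pos hk (E j) (hEsh j)
    obtain ⟨h1, h2⟩ := hEq q hq hq' hqr
    obtain ⟨h3, h4⟩ := frame_basis B hq' H.pos hk hκ h1 h2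
    obtain ⟨h5, h6⟩ := hC R 𝒜 p μ a f H q σ hq hq' s' Y B
    obtain ⟨-, h7⟩ := hD R 𝒜 p μ a f H σ htop q hq hq' s' Y B h5 h6
    obtain ⟨κ0, hκ0⟩ := h7 ℓ hℓ
    have h8 : κ0 ∈ Submodule.span ℂ (Set.range κ) := by
      rw [h4]
      trivial
    obtain ⟨t, ht⟩ := (Submodule.mem_span_range_iff_exists_fun ℂ).1 h8
    refine ⟨κ, t, hκ, h3, h4, ?_⟩
    rw [hκ0, ← ht, der_sum_left]
    exact Finset.sum_congr rfl fun j _ => by rw [hκ]
  -- the lists
  obtain ⟨l, hl, hdet⟩ := exists_lists (N := N) (fun l j => q0 (iterE E l (E j f))) (by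
    intro t ht
    obtain ⟨s', Y, B⟩ := hA R 𝒜 p μ a f H q0 σ hq0 hq0'
    obtain ⟨κ, -, hκ, h3, h4, -⟩ := hpt q0 hq0 hq0' hqr s' Y B
    apply h3
    by_contra hne
    refine (hC R 𝒜 p μ a f H q0 σ hq0 hq0' s' Y B).2 _ hne ?_
    have hYf : (Y f).IsHomogeneous (N + 1) := by
      refine B.hom 1 μ (N + 1) f H.hf ?_
      rw [one_smul]
      push_cast
      exact he
    refine eq_zero_of_iter h4 N (der_homogeneous _ hYf) ?_
    intro l hl
    rw [der_sum_left, iter_sum]
    have h5 : ∀ j, iter κ l (der (κ j) (Y f)) = C (q0 (iterE E l (E j f))) := by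
      intro j
      rw [← hκ, ← iterE_Y hκ]
      exact B.zero _ _ (hG l hl j)
    rw [Finset.sum_congr rfl fun j _ => by rw [h5 j, MvPolynomial.smul_eq_C_mul, ← C_mul],
      ← map_sum, ht l hl, C_0])
  let A : Matrix (Fin s) (Fin s) R := Matrix.of fun i j => iterE E (l i) (E j f)
  have hAm : ∀ i j, A i j ∈ 𝒜 (1 + (N + 1) * c, (1 + (N + 1) * c) • σ) := fun i j => hG _ (hl i) j
  have hqA : ∀ q : R →ₐ[ℂ] ℂ, q A.det = (Matrix.of fun i j => q (iterE E (l i) (E j f))).det := by
    intro q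
    rw [AlgHom.map_det]
    rfl
  obtain ⟨g0, hg0, hqg0⟩ : ∃ g0 ∈ 𝒜 (1, σ), q0 g0 ≠ 0 := by
    obtain ⟨m, h, hh, hne⟩ := (not_isVertex_iff hX.gen q0).1 hq0
    have := hq0' 1 m h hh hne
    rw [one_smul] at this
    subst this
    exact ⟨h, hh, hne⟩
  have hg0c : g0 ^ c ∈ 𝒜 (c, c • σ) := by
    have := SetLike.pow_mem_graded c hg0
    have h2 : c • ((1, σ) : ℕ × ℤ) = (c, c • σ) := by
      rw [Prod.smul_mk, smul_eq_mul, mul_one]
    rwa [h2] at this
  let b : Fin s → R := fun i => g0 ^ c * iterE E (l i) ℓ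
  have hb : ∀ i, b i ∈ 𝒜 (1 + (N + 1) * c, (1 + (N + 1) * c) • σ) := by
    intro i
    have h1 := SetLike.mul_mem_graded hg0c (hL (l i) (hl i))
    have h2 : ((1 + (N + 1) * c, (1 + (N + 1) * c) • σ) : ℕ × ℤ) =
        (c, c • σ) + (1 + N * c, (1 + N * c) • σ) := by
      rw [Prod.mk_add_mk, ← add_smul]
      have : 1 + (N + 1) * c = c + (1 + N * c) := by ring
      rw [this]
    rw [h2]
    exact h1
  let U : Fin s → R := Matrix.cramer A b
  have hU : ∀ j, U j ∈ 𝒜 (s * (1 + (N + 1) * c), (s * (1 + (N + 1) * c)) • σ) := by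
    intro j
    change Matrix.cramer A b j ∈ _
    rw [Matrix.cramer_apply]
    refine det_mem fun i j' => ?_
    rw [Matrix.updateCol_apply]
    split_ifs
    · exact hb i
    · exact hAm i j'
  have hAU : ∀ i, ∑ j, A i j * U j = A.det * (g0 ^ c * iterE E (l i) ℓ) := by
    intro i
    have h1 := congr_fun (Matrix.mulVec_cramer A b) i
    exact h1
  set M : ℕ := s * (1 + (N + 1) * c) with hM
  have hdetm : A.det ∈ 𝒜 (M, M • σ) := det_mem hAm
  have hΔ : A.det * g0 ^ c ∈ 𝒜 (M + c, (M + c) • σ) := by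
    have h1 := SetLike.mul_mem_graded hdetm hg0c
    rwa [Prod.mk_add_mk, ← add_smul] at h1
  let D : Derivation ℂ R R := ∑ j, U j • E j
  have hDapp : ∀ h, D h = ∑ j, U j * E j h := by
    intro h
    change (∑ j, U j • E j : Derivation ℂ R R) h = _
    rw [← Derivation.coeFnAddMonoidHom_apply, map_sum, Finset.sum_apply]
    rfl
  have hDm : ∀ (d : ℕ) (m : ℤ), ∀ h ∈ 𝒜 (d, m), D h ∈ 𝒜 (d + (M + c), m + (M + c) • σ + a) := by
    intro d m h hh
    rw [hDapp]
    refine Submodule.sum_mem _ fun j _ => ?_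
    have h1 := SetLike.mul_mem_graded (hU j) (hEsh j d m h hh)
    have h2 : ((d + (M + c), m + (M + c) • σ + a) : ℕ × ℤ) =
        (M, M • σ) + (d + c, m + c • σ + a) := by
      rw [Prod.mk_add_mk, add_smul]
      apply Prod.ext
      · simp only
        ring
      · simp only
        ring
    rw [h2]
    exact h1
  refine ⟨M + c, A.det * g0 ^ c, D, hΔ, ?_, hDm, ?_⟩
  · rw [map_mul, map_pow, hqA]
    exact mul_ne_zero hdet (pow_ne_zero _ hqg0)
  · rw [← sub_eq_zero]
    have hrΔ : r * (A.det * g0 ^ c) ∈ 𝒜 (c' + (M + c), (c' + (M + c)) • σ) := by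
      have h1 := SetLike.mul_mem_graded hr hΔ
      rwa [Prod.mk_add_mk, ← add_smul] at h1
    refine eq_zero_of_fibres hX hf0 hf0' htop (fun q hq hq' => hA R 𝒜 p μ a f H q σ hq hq') hrΔ
      ?_ ?_
    · intro h0
      have h1 : q0 (r * (A.det * g0 ^ c)) ≠ 0 := by
        rw [map_mul, map_mul, map_pow, hqA]
        exact mul_ne_zero hqr (mul_ne_zero hdet (pow_ne_zero _ hqg0))
      rw [h0, map_zero] at h1
      exact h1 rfl
    · intro q hq hq' hqg s' Y B
      rw [map_mul, map_mul] at hqg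
      have hqr' : q r ≠ 0 := left_ne_zero_of_mul hqg
      have hqd : q A.det ≠ 0 := left_ne_zero_of_mul (right_ne_zero_of_mul hqg)
      obtain ⟨κ, t, hκ, h3, h4, h5⟩ := hpt q hq hq' hqr' s' Y B
      have hYU : ∀ j, Y (U j) = C (q (U j)) := fun j => B.zero _ _ (hU j)
      have hYΔ : Y (A.det * g0 ^ c) = C (q (A.det * g0 ^ c)) := B.zero _ _ hΔ
      -- the values at `q` of the last functions
      have h6 : ∀ i, q (iterE E (l i) ℓ) = ∑ j, q (A i j) * t j := by
        intro i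
        have h7 : Y (iterE E (l i) ℓ) = C (q (iterE E (l i) ℓ)) := B.zero _ _ (hL _ (hl i))
        have h8 : Y (iterE E (l i) ℓ) = ∑ j, t j • iter κ (l i) (Y (E j f)) := by
          rw [iterE_Y hκ, h5, iter_sum]
        have h9 : ∀ j, iter κ (l i) (Y (E j f)) = C (q (A i j)) := by
          intro j
          rw [← iterE_Y hκ]
          exact B.zero _ _ (hAm i j)
        rw [h7, Finset.sum_congr rfl fun j _ => by rw [h9 j, MvPolynomial.smul_eq_C_mul, ← C_mul],
          ← map_sum] at h8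
        rw [C_injective _ _ h8]
        exact Finset.sum_congr rfl fun j _ => mul_comm _ _
      have h7 : (fun j => q (U j)) = fun j => q (A.det * g0 ^ c) * t j := by
        refine eq_of_det (A := Matrix.of fun i j => q (A i j)) ?_ fun i => ?_
        · have := hqA q
          rw [this] at hqd
          exact hqd
        · have h8 := congr_arg q (hAU i)
          rw [map_sum, Finset.sum_congr rfl fun j _ => map_mul q _ _] at h8
          simp only [Matrix.of_apply]
          rw [h8, map_mul, map_mul, h6, map_mul]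
          rw [Finset.sum_congr rfl fun j _ => show q (A i j) * (q A.det * q (g0 ^ c) * t j) =
            q A.det * q (g0 ^ c) * (q (A i j) * t j) from by ring, ← Finset.mul_sum]
          ring
      have h8 : ∀ j, q (U j) = q (A.det * g0 ^ c) * t j := fun j => congr_fun h7 j
      rw [map_sub, hDapp, map_sum, map_mul, hYΔ, h5, Finset.mul_sum, ← Finset.sum_sub_distrib]
      refine Finset.sum_eq_zero fun j _ => ?_
      rw [map_mul, hYU, h8, MvPolynomial.smul_eq_C_mul, C_mul]
      ring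

end Vale.Agent.P280.H812
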