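import Vale.Agent.P280.H812.F4
import Vale.Agent.P280.H127.Ext4

/-! P280, row F: the field over a neighbourhood of the sink. -/

open DirectSum Vale.Agent.P280.T MvPolynomial

namespace Vale.Agent.P280.H812

variable {R : Type} [CommRing R] [Algebra ℂ R] {𝒜 : ℕ × ℤ → Submodule ℂ R} [GradedAlgebra 𝒜]

/-- A field which kills `f` is zero. -/
theorem eq_zero_of_kills (hA : RowA) (hC : RowC) {p : R →ₐ[ℂ] ℂ} {μ a : ℤ} {f : R}
    (H : Hom 𝒜 p μ a f) {σ : ℤ} {f0 : R} (hf0 : f0 ∈ 𝒜 (1, σ)) (hf0' : f0 ≠ 0)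
    (htop : IsTop 𝒜 σ) {c : ℕ} (E : Derivation ℂ R R)
    (hE : ∀ (d : ℕ) (m : ℤ), ∀ h ∈ 𝒜 (d, m), E h ∈ 𝒜 (d + c, m + c • σ + a)) (hEf : E f = 0)
    (x : R) : E x = 0 := by
  have hk := H.exists_nat hf0 hf0' htop
  have := H.man.domain
  refine eq_zero_of_fibres (g := 1) (N := 0) H.man hf0 hf0' htop
    (fun q hq hq' => hA R 𝒜 p μ a f H q σ hq hq') ?_ one_ne_zero ?_
  · rw [zero_smul]
    exact SetLike.GradedOne.one_mem
  · intro q hq hq' _ s Y B
    obtain ⟨κ, hκ⟩ := bb_der B htop H.pos hk E hE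
    by_cases h0 : κ = 0
    · rw [hκ, h0]
      simp [der]
    · exfalso
      refine (hC R 𝒜 p μ a f H q σ hq hq' s Y B).2 κ h0 ?_
      rw [← hκ, hEf, map_zero]

/-- `Δ` is a denominator of degree `n`. -/
def Adm (𝒜 : ℕ × ℤ → Submodule ℂ R) (σ a : ℤ) (f ℓ : R) (n : ℕ) (Δ : R) : Prop :=
  Δ ∈ 𝒜 (n, n • σ) ∧ ∃ D : Derivation ℂ R R,
    (∀ (d : ℕ) (m : ℤ), ∀ h ∈ 𝒜 (d, m), D h ∈ 𝒜 (d + n, m + n • σ + a)) ∧ D f = Δ * ℓ

omit [GradedAlgebra 𝒜] in
theorem Adm.zero {σ a : ℤ} {f ℓ : R} {n : ℕ} : Adm 𝒜 σ a f ℓ n 0 :=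
  ⟨Submodule.zero_mem _, 0, fun _ _ _ _ => Submodule.zero_mem _, by rw [zero_mul]; rfl⟩

omit [GradedAlgebra 𝒜] in
theorem Adm.add {σ a : ℤ} {f ℓ : R} {n : ℕ} {x y : R} (hx : Adm 𝒜 σ a f ℓ n x)
    (hy : Adm 𝒜 σ a f ℓ n y) : Adm 𝒜 σ a f ℓ n (x + y) := by
  obtain ⟨hx, D, hD, hDf⟩ := hx
  obtain ⟨hy, E, hE, hEf⟩ := hy
  refine ⟨Submodule.add_mem _ hx hy, D + E, fun d m h hh => ?_, ?_⟩
  · exact Submodule.add_mem _ (hD d m h hh) (hE d m h hh)
  · rw [add_mul, ← hDf, ← hEf]
    rfl

theorem Adm.mul {σ a : ℤ} {f ℓ : R} {n k : ℕ} {r x : R} (hr : r ∈ 𝒜 (k, k • σ))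
    (hx : Adm 𝒜 σ a f ℓ n x) : Adm 𝒜 σ a f ℓ (k + n) (r * x) := by
  obtain ⟨hx, D, hD, hDf⟩ := hx
  refine ⟨?_, r • D, fun d m h hh => ?_, ?_⟩
  · have h1 := SetLike.mul_mem_graded hr hx
    rwa [Prod.mk_add_mk, ← add_smul] at h1
  · have h1 := SetLike.mul_mem_graded hr (hD d m h hh)
    have h2 : ((d + (k + n), m + (k + n) • σ + a) : ℕ × ℤ) =
        (k, k • σ) + (d + n, m + n • σ + a) := by
      rw [Prod.mk_add_mk, add_smul]
      apply Prod.ext
      · simp only
        ring
      · simp only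
        ring
    rw [h2]
    exact h1
  · change r * D f = r * x * ℓ
    rw [hDf, mul_assoc]

theorem comp_mul_eq_zero {i k : ℕ × ℤ} {r : R} (hr : r ∈ 𝒜 i) (h : ¬ ∃ j, i + j = k) (x : R) :
    (decompose 𝒜 (r * x) k : R) = 0 := by
  induction x using DirectSum.Decomposition.inductionOn 𝒜 with
  | zero => rw [mul_zero, decompose_zero, DirectSum.zero_apply]; rfl
  | @homogeneous j x =>
    exact decompose_of_mem_ne 𝒜 (SetLike.mul_mem_graded hr x.2) (fun h' => h ⟨j, h'⟩)
  | add x y hx hy =>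
    rw [mul_add, decompose_add, DirectSum.add_apply, Submodule.coe_add, hx, hy, add_zero]

theorem adm_comp {σ a : ℤ} {f ℓ : R} (htop : IsTop 𝒜 σ) {x : R}
    (hx : x ∈ Ideal.span ({Δ | ∃ n, Adm 𝒜 σ a f ℓ n Δ} ∪
      {h | ∃ (d : ℕ) (m : ℤ), m < d • σ ∧ h ∈ 𝒜 (d, m)})) :
    ∀ n : ℕ, Adm 𝒜 σ a f ℓ n (decompose 𝒜 x (n, n • σ) : R) := by
  induction hx using Submodule.span_induction with
  | mem x hx =>
    intro n
    rcases hx with ⟨N, hN⟩ | ⟨d, m, hm, hx⟩
    · by_cases h : N = n
      · subst h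
        rw [decompose_of_mem_same 𝒜 hN.1]
        exact hN
      · rw [decompose_of_mem_ne 𝒜 hN.1 (fun h' => h (congrArg Prod.fst h'))]
        exact Adm.zero
    · rw [decompose_of_mem_ne 𝒜 hx]
      · exact Adm.zero
      · intro h'
        have h1 : d = n := congrArg Prod.fst h'
        have h2 : m = n • σ := congrArg Prod.snd h'
        subst h1
        exact hm.ne h2
  | zero =>
    intro n
    rw [decompose_zero, DirectSum.zero_apply]
    exact Adm.zero
  | add x y _ _ hx hy =>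
    intro n
    rw [decompose_add, DirectSum.add_apply, Submodule.coe_add]
    exact (hx n).add (hy n)
  | smul r x _ hx =>
    intro n
    rw [smul_eq_mul]
    induction r using DirectSum.Decomposition.inductionOn 𝒜 with
    | zero =>
      rw [zero_mul, decompose_zero, DirectSum.zero_apply]
      exact Adm.zero
    | @homogeneous i r =>
      obtain ⟨d, m⟩ := i
      by_cases hr0 : (r : R) = 0
      · rw [hr0, zero_mul, decompose_zero, DirectSum.zero_apply]
        exact Adm.zero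
      by_cases h : ∃ j, (d, m) + j = (n, n • σ)
      · obtain ⟨⟨d', m'⟩, hj⟩ := h
        have h1 : d + d' = n := congrArg Prod.fst hj
        have h2 : m + m' = n • σ := congrArg Prod.snd hj
        subst h1
        rw [← hj, coe_decompose_mul_add_of_left_mem 𝒜 r.2]
        rw [add_smul] at h2
        by_cases hm : m = d • σ
        · subst hm
          have h3 : m' = d' • σ := by linarith
          subst h3
          exact (hx d').mul r.2
        · have h3 : m < d • σ := lt_of_le_of_ne (htop d m r r.2 hr0) hm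
          have h4 : (decompose 𝒜 x (d', m') : R) = 0 := by
            by_contra hne
            have := htop d' m' _ (decompose 𝒜 x (d', m')).2 hne
            linarith
          rw [h4, mul_zero]
          exact Adm.zero
      · rw [comp_mul_eq_zero r.2 h]
        exact Adm.zero
    | add r r' hr hr' =>
      rw [add_mul, decompose_add, DirectSum.add_apply, Submodule.coe_add]
      exact hr.add hr'

theorem global_field (hA : RowA) (hC : RowC) (hD : RowD) (hE : RowE) {p : R →ₐ[ℂ] ℂ} {μ a : ℤ}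
    {f : R} (H : Hom 𝒜 p μ a f) {σ : ℤ} {f0 : R} (hf0 : f0 ∈ 𝒜 (1, σ)) (hf0' : f0 ≠ 0)
    (htop : IsTop 𝒜 σ) {ℓ : R} (hℓ : ℓ ∈ 𝒜 (1, μ + a)) : ∃ n, Adm 𝒜 σ a f ℓ n (f0 ^ n) := by
  have := H.man.finiteType
  by_contra hcon
  push Not at hcon
  obtain ⟨z, hz, hzf⟩ := exists_point (I := Ideal.span ({Δ | ∃ n, Adm 𝒜 σ a f ℓ n Δ} ∪
      {h | ∃ (d : ℕ) (m : ℤ), m < d • σ ∧ h ∈ 𝒜 (d, m)})) (g := f0) (by
    rintro ⟨n, hn⟩
    have h1 := adm_comp htop hn n
    have h2 : f0 ^ n ∈ 𝒜 (n, n • σ) := by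
      have := SetLike.pow_mem_graded n hf0
      rwa [Prod.smul_mk, smul_eq_mul, mul_one] at this
    rw [decompose_of_mem_same 𝒜 h2] at h1
    exact hcon n h1)
  have hzfix : IsFixed 𝒜 z σ := by
    intro d m h hh hne
    by_contra hm
    have h1 := htop d m h hh (fun h0 => hne (by rw [h0, map_zero]))
    exact hne (hz h (Ideal.subset_span (Or.inr ⟨d, m, lt_of_le_of_ne h1 hm, hh⟩)))
  have hzv : ¬ IsVertex 𝒜 z := fun h => hzf (h 1 σ one_pos f0 hf0)
  obtain ⟨N, Δ, D, hΔ, hzΔ, hDm, hDf⟩ := local_field hA hC hD hE H hf0 hf0' htop hℓ hzv hzfix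
  exact hzΔ (hz Δ (Ideal.subset_span (Or.inl ⟨N, hΔ, D, hDm, hDf⟩)))

theorem rowF (hA : RowA) (hC : RowC) (hD : RowD) (hE : RowE) : RowF := by
  intro R _ _ 𝒜 _ p μ a f H ℓ hℓ
  have hX := H.man
  have := hX.domain
  obtain ⟨σ, f0, hf0, hf0', htop⟩ := exists_top hX
  obtain ⟨N, hΔ, D0, hD0, hD0f⟩ := global_field hA hC hD hE H hf0 hf0' htop hℓ
  let l : ℤ →+ ℤ := -AddMonoidHom.id ℤ
  have hl : ∀ m, l m = -m := fun m => rfl
  have hX' := H587.isTorusManifold_co (l := l) hX
  have hfixrev : ∀ {q : R →ₐ[ℂ] ℂ} {ν : ℤ}, IsFixed (H587.co 𝒜 l) q ν → IsFixed 𝒜 q (-ν) := by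
    intro q ν hq d m h hh hne
    have h1 := hq d (l m) h (H587.mem_co hh) hne
    rw [hl] at h1
    rw [smul_neg]
    linarith
  have hdvd : ∀ h, f0 ^ N ∣ D0 h := by
    refine H127.extension_gen (𝒜 := H587.co 𝒜 l) hX' H.pos ?_ (μ := l σ) ?_ (H587.mem_co hf0)
      hf0' N D0 ?_ ?_
    · rintro q ν hq hq' χ ⟨v, hv, hw, hc⟩
      have h1 : TangentWeight 𝒜 q (-ν) (-χ) := by
        refine ⟨v, hv, ?_, ?_⟩
        · intro d m h hh hne
          have h2 := hw d (l m) h (H587.mem_co hh) hne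
          rw [hl] at h2
          rw [smul_neg]
          linarith
        · intro c
          by_contra hcon
          push Not at hcon
          obtain ⟨d, k, h, hh, hne⟩ := hc c
          apply hne
          refine H587.co_induction (P := fun h => v h = c * d * q h) ?_ ?_ ?_ hh
          · rw [map_zero, map_zero, mul_zero]
          · intro x y hx hy
            rw [map_add, map_add, hx, hy, mul_add]
          · intro m _ h hh
            exact hcon d m h hh
      have h2 := (H127.weight_bounds H939.theoremI_all hX H.nef H.src H.pos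
        (fun h => hq (H587.isVertex_co.2 h)) (hfixrev hq') h1).1
      have h3 : (AddMonoidHom.id ℤ) (-χ) = -χ := rfl
      rw [h3] at h2
      linarith
    · intro k h hh hne
      obtain ⟨m, hm, y, hy, hy'⟩ := H587.exists_ne_of_co (LinearMap.id : R →ₗ[ℂ] R) hh hne
      have h1 := htop 1 m y hy hy'
      rw [one_smul] at h1
      rw [hl] at hm ⊢
      linarith
    · intro d k h hh
      refine H587.co_induction
        (P := fun h => D0 h ∈ H587.co 𝒜 l (d + N, k + N • l σ - a)) ?_ ?_ ?_ hh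
      · rw [map_zero]
        exact Submodule.zero_mem _
      · intro x y hx hy
        rw [map_add]
        exact Submodule.add_mem _ hx hy
      · intro m hm h hh
        have h1 := H587.mem_co (l := l) (hD0 d m h hh)
        rw [hl] at h1
        rw [hl] at hm ⊢
        have h2 : -(m + N • σ + a) = k + N • (-σ) - a := by
          rw [smul_neg, ← hm]
          ring
        rwa [h2] at h1
    · intro q hq hq'
      have hq1 : IsFixed 𝒜 q σ := by
        have := hfixrev hq'
        rwa [hl, neg_neg] at this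
      have hq2 : ¬ IsVertex 𝒜 q := fun h => hq (H587.isVertex_co.2 h)
      obtain ⟨N', Δ, D', hΔ', hqΔ, hD'm, hD'f⟩ :=
        local_field hA hC hD hE H hf0 hf0' htop hℓ hq2 hq1
      refine ⟨Δ, hqΔ, fun h => ⟨D' h, ?_⟩⟩
      obtain ⟨-, D1, hD1, hD1f⟩ := Adm.mul hΔ ⟨hΔ', D', hD'm, hD'f⟩
      have h2 := eq_zero_of_kills hA hC H hf0 hf0' htop (c := N + N')
        (Δ • D0 - (f0 ^ N) • D') (by
          intro d m h hh
          refine Submodule.sub_mem _ ?_ ?_
          · have h1 := SetLike.mul_mem_graded hΔ' (hD0 d m h hh)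
            have h2 : ((d + (N + N'), m + (N + N') • σ + a) : ℕ × ℤ) =
                (N', N' • σ) + (d + N, m + N • σ + a) := by
              rw [Prod.mk_add_mk, add_smul]
              apply Prod.ext
              · simp only
                ring
              · simp only
                ring
            rw [h2]
            exact h1
          · have h1 := SetLike.mul_mem_graded hΔ (hD'm d m h hh)
            have h2 : ((d + (N + N'), m + (N + N') • σ + a) : ℕ × ℤ) =
                (N, N • σ) + (d + N', m + N' • σ + a) := by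
              rw [Prod.mk_add_mk, add_smul]
              apply Prod.ext
              · simp only
                ring
              · simp only
                ring
            rw [h2]
            exact h1) (by
          change Δ * D0 f - f0 ^ N * D' f = 0
          rw [hD0f, hD'f]
          ring) h
      exact sub_eq_zero.1 h2
  have hne : f0 ^ N ≠ 0 := pow_ne_zero N hf0'
  obtain ⟨D, hD'⟩ := H644.exists_div_derivation hne D0 hdvd
  refine ⟨D, ?_, ?_⟩
  · intro d m h hh
    have h1 := hD0 d m h hh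
    rw [hD'] at h1
    refine H644.mem_of_mul_mem_graded hne hΔ (j := (d, m + a)) ?_
    have h2 : ((N, N • σ) + (d, m + a) : ℕ × ℤ) = (d + N, m + N • σ + a) := by
      rw [Prod.mk_add_mk]
      apply Prod.ext
      · simp only
        ring
      · simp only
        ring
    rw [h2]
    exact h1
  · apply mul_left_cancel₀ hne
    rw [← hD', hD0f]

end Vale.Agent.P280.H812
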