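import Vale.Agent.P280.H127.Full

/-! P280, torus case: the last forms of Theorem I and of Corollary B, for any one-parameter
subgroup of the torus. -/

open DirectSum Vale.Agent.P280.T

namespace Vale.Agent.P280.H812

variable {M : Type} [AddCommGroup M] [DecidableEq M]
variable {R : Type} [CommRing R] [Algebra ℂ R] {𝒜 : ℕ × M → Submodule ℂ R} [GradedAlgebra 𝒜]

/-- Nonzero tangent weights of a one-parameter subgroup come from tangent weights. -/
theorem exists_of_tangentWeight_co {l : M →+ ℤ} {p : R →ₐ[ℂ] ℂ} {μ : M} (hp : IsFixed 𝒜 p μ)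
    {k : ℤ} (hk : k ≠ 0) (h : TangentWeight (H587.co 𝒜 l) p (l μ) k) :
    ∃ χ, TangentWeight 𝒜 p μ χ ∧ l χ = k := by
  obtain ⟨v, hv, hw, hc⟩ := h
  obtain ⟨d, k', y, hy, hne⟩ := hc 0
  rw [zero_mul, zero_mul] at hne
  obtain ⟨m, -, z, hz, hz'⟩ := H587.exists_ne_of_co v hy hne
  have h1 : l (m - d • μ) = k := by
    have := hw d (l m) z (H587.mem_co hz) hz'
    rw [map_sub, map_nsmul, this]
    abel
  have h2 : m - d • μ ≠ 0 := by
    intro h0
    apply hk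
    rw [← h1, h0, map_zero]
  obtain ⟨v', h3, h4, h5⟩ := H587.exists_component hp hv (m - d • μ)
  refine ⟨m - d • μ, H587.tangentWeight_of_ne hp h2 h3 h4 d m hz ?_, h1⟩
  rw [h5 d m z hz (by abel)]
  exact hz'

/-- **Theorem I** for a torus. -/
theorem theoremI_full (hX : IsTorusManifold 𝒜) (hN : NefOnRationalCurves 𝒜) {l : M →+ ℤ}
    {p : R →ₐ[ℂ] ℂ} {μ : M} {a : ℤ} (ha : 0 < a) (hs : IsSource 𝒜 l p μ a) {x : R →ₐ[ℂ] ℂ}
    {ν : M} (hx : ¬ IsVertex 𝒜 x) (hx' : IsFixed 𝒜 x ν) :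
    (∀ χ, TangentWeight 𝒜 x ν χ → -a ≤ l χ ∧ l χ ≤ a) ∧
      ∀ χ, l χ = a → ∀ v : R →ₗ[ℂ] ℂ, IsTangent x v → HasWeight 𝒜 ν χ v →
        ∃ D : Derivation ℂ R R, (∀ d m, ∀ h ∈ 𝒜 (d, m), D h ∈ 𝒜 (d, m - χ)) ∧
          ∀ h : R, x (D h) = v h := by
  refine ⟨fun χ hχ => H127.weight_bounds H939.theoremI_all hX hN hs ha hx hx' hχ, ?_⟩
  rintro χ rfl v hv hw
  exact H587.field_of_extremal H939.theoremI_all hX hN hs ha hx hx' hv hw

/-- **Corollary B** for a one-parameter subgroup of a torus. -/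
theorem corollaryB_torus {r : ℕ} {𝒜 : ℕ × (Fin r → ℤ) → Submodule ℂ R} [GradedAlgebra 𝒜]
    (hX : IsTorusManifold 𝒜) (hN : NefOnRationalCurves 𝒜) {l : (Fin r → ℤ) →+ ℤ}
    {p q : R →ₐ[ℂ] ℂ} {μ ξ : Fin r → ℤ} {a b : ℤ} (hp : IsSource 𝒜 l p μ a)
    (h1 : ∀ χ, TangentWeight 𝒜 p μ χ → l χ = a) (hq : IsSource 𝒜 (-l) q ξ b) :
    IsHomogeneousManifold 𝒜 ∧ H127.IsTransitive 𝒜 := by
  have hXc := H587.isTorusManifold_co (l := l) hX
  have hpc := H587.isSource_co hp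
  have hdvd := H587.dvd_of_fixed hXc hpc.1 hpc.2.1 (a := a) (fun k hk => by
    have h2 := hpc.2.2 k hk
    have h3 : 0 < k := h2.1
    obtain ⟨χ, hχ, hχk⟩ := exists_of_tangentWeight_co hp.2.1 h3.ne' hk
    rw [← hχk, h1 χ hχ])
  refine H127.theoremII_full hX hN hp.1 hp.2.1 ?_ l ?_
  · intro χ hχ
    refine ⟨l, p, μ, hp.1, hp.2.1, fun ω hω => ?_⟩
    have h2 := hp.2.2 ω hω
    rw [h1 ω hω] at h2 ⊢
    rw [h1 χ hχ]
    exact h2
  · intro x ν hx0 hx hs
    obtain ⟨χ, hχ, hneg⟩ := H587.exists_neg_of_source hX hp hx0 hx hs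
    have ha : 0 < a := H587.pos_of_isSource hX hp hx0 hχ
    -- the weight is `- a`
    have h2 : a ∣ l χ := by
      obtain ⟨v, hv, hw, hc⟩ := id hχ
      obtain ⟨d, m, h, hh, hne⟩ := hc 0
      rw [zero_mul, zero_mul] at hne
      have h3 := hdvd d (l m) h (H587.mem_co hh) (fun h0 => hne (by rw [h0, map_zero]))
      rw [hw d m h hh hne] at h3
      obtain ⟨f, hf, hfx⟩ := exists_deg_one_ne hX.gen hx0 hx
      have h4 := hdvd 1 (l ν) f (H587.mem_co hf) (fun h0 => hfx (by rw [h0, map_zero]))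
      rw [one_smul] at h4
      have h5 : l χ = (l (d • ν + χ) - d • l μ) - d • (l ν - l μ) := by
        rw [smul_sub, map_add, map_nsmul]; ring
      rw [h5]
      exact dvd_sub h3 (by
        rw [nsmul_eq_mul]
        exact Dvd.dvd.mul_left h4 _)
    have h3 := (H127.weight_bounds H939.theoremI_all hX hN hp ha hx0 hx hχ).1
    have h4 : l χ = -a := by
      obtain ⟨k, hk⟩ := h2
      have h5 : -1 ≤ k := by
        by_contra h
        have : k ≤ -2 := by omega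
        nlinarith
      have h6 : k < 0 := by
        by_contra h
        have : 0 ≤ k := by omega
        nlinarith
      have h7 : k = -1 := by omega
      rw [hk, h7]
      ring
    refine ⟨χ, hχ, ?_, hneg⟩
    refine ⟨-l, q, ξ, hq.1, hq.2.1, fun ω hω => ⟨(hq.2.2 ω hω).1, ?_⟩⟩
    change -l ω ≤ -l χ
    have h5 := (H127.weight_bounds H939.theoremI_all hX hN hp ha hq.1 hq.2.1 hω).1
    rw [h4]
    omega

end Vale.Agent.P280.H812
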