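import Vale.Agent.P280.H812.Parts
import Vale.Agent.P280.H812.X3

/-! P280: one fixed point at which a one-parameter group acts by homotheties. -/

open DirectSum Vale.Agent.P280.T

namespace Vale.Agent.P280.H812

variable {M : Type} [AddCommGroup M] [DecidableEq M]
variable {R : Type} [CommRing R] [Algebra ℂ R] {𝒜 : ℕ × M → Submodule ℂ R} [GradedAlgebra 𝒜]

theorem homogeneous_of_co {l : M →+ ℤ} (hH : IsHomogeneousManifold (H587.co 𝒜 l)) :
    IsHomogeneousManifold 𝒜 := by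
  intro p hp v hv
  obtain ⟨D, hD, hDv⟩ := hH p (fun h => hp (H587.isVertex_co.1 h)) v hv
  refine ⟨D, ?_, hDv⟩
  intro d m h hh
  have h1 := hD d (l m) h (H587.mem_co hh)
  have h2 : (⨆ k : ℤ, H587.co 𝒜 l (d, k)) ≤ ⨆ m' : M, 𝒜 (d, m') := by
    refine iSup_le fun k x hx => ?_
    refine H587.co_induction (P := fun x => x ∈ ⨆ m' : M, 𝒜 (d, m')) ?_ ?_ ?_ hx
    · exact Submodule.zero_mem _
    · intro a b ha hb
      exact Submodule.add_mem _ ha hb
    · intro m _ h hh
      exact Submodule.mem_iSup_of_mem m hh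
  exact h2 h1

/-- A projective manifold with nef tangent bundle is homogeneous if some one-parameter group of a
torus acts by homotheties on the tangent space at a fixed point. -/
theorem homothety (hG : RowG) (hX : IsTorusManifold 𝒜) (hN : NefOnRationalCurves 𝒜) {l : M →+ ℤ}
    {p : R →ₐ[ℂ] ℂ} {μ : M} {a : ℤ} (ha : 0 < a) (hp0 : ¬ IsVertex 𝒜 p) (hp : IsFixed 𝒜 p μ)
    (h1 : ∀ χ, TangentWeight 𝒜 p μ χ → l χ = a) :
    IsHomogeneousManifold 𝒜 ∧ H127.IsTransitive 𝒜 := by
  have hs : IsSource 𝒜 l p μ a := ⟨hp0, hp, fun χ hχ => by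
    rw [h1 χ hχ]
    exact ⟨ha, le_rfl⟩⟩
  obtain ⟨m, h, hh, hne⟩ := (not_isVertex_iff hX.gen p).1 hp0
  have hm : m = μ := by
    have := hp 1 m h hh hne
    rwa [one_smul] at this
  subst hm
  have hpc := H587.isSource_co hs
  have hH : IsHomogeneousManifold (H587.co 𝒜 l) := by
    refine hG R (H587.co 𝒜 l) p (l m) a ((p h)⁻¹ • h) ⟨H587.isTorusManifold_co hX,
      H587.nef_co hN, hpc, ha, ?_, ?_, ?_⟩
    · intro k hk
      have h3 : 0 < k := (hpc.2.2 k hk).1
      obtain ⟨χ, hχ, hχk⟩ := exists_of_tangentWeight_co hp h3.ne' hk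
      rw [← hχk, h1 χ hχ]
    · exact Submodule.smul_mem _ _ (H587.mem_co hh)
    · rw [map_smul, smul_eq_mul, inv_mul_cancel₀ hne]
  have hH' := homogeneous_of_co hH
  exact ⟨hH', H127.isTransitive_of_source hX hs hH'⟩

end Vale.Agent.P280.H812
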