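import Vale.Agent.P280.H455.RowG
import Vale.Agent.P280.H127.RowC
import Vale.Agent.P280.H93.RowE
import Vale.Agent.P280.H644.RowB2
import Vale.Agent.P280.H587.RowA
import Vale.Agent.P280.H939.D3
import Vale.Agent.P280.H812.F5
import Vale.Agent.P280.H812.X3Fin

/-! P280: one fixed point at which a one-parameter group acts by homotheties; assembly. -/

open DirectSum Vale.Agent.P280.T

namespace Vale.Agent.P280.H812

theorem rowG_all : RowG := by
  have hA : RowA := H587.rowA
  have hB : RowB := X.rowB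
  have hC : RowC := H127.rowC hA hB
  have hD : RowD := H939.rowD
  have hE : RowE := H93.rowE
  exact H455.rowG hA hC hD (rowF hA hC hD hE)

variable {M : Type} [AddCommGroup M] [DecidableEq M]
variable {R : Type} [CommRing R] [Algebra ℂ R] {𝒜 : ℕ × M → Submodule ℂ R} [GradedAlgebra 𝒜]

theorem homothety_ne (hG : RowG) (hX : IsTorusManifold 𝒜) (hN : NefOnRationalCurves 𝒜)
    {l : M →+ ℤ} {p : R →ₐ[ℂ] ℂ} {μ : M} {a : ℤ} (ha : a ≠ 0) (hp0 : ¬ IsVertex 𝒜 p)
    (hp : IsFixed 𝒜 p μ) (h1 : ∀ χ, TangentWeight 𝒜 p μ χ → l χ = a) :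
    IsHomogeneousManifold 𝒜 ∧ H127.IsTransitive 𝒜 := by
  rcases lt_or_gt_of_ne ha with h | h
  · exact homothety hG hX hN (l := -l) (a := -a) (neg_pos.2 h) hp0 hp
      (fun χ hχ => by rw [AddMonoidHom.neg_apply, h1 χ hχ])
  · exact homothety hG hX hN h hp0 hp h1

end Vale.Agent.P280.H812
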